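import Mathlib.Topology.Compactness.Compact
import Mathlib.Topology.Separation.Basic
import Mathlib.Data.Fintype.Basic
import Mathlib.Data.Set.Finite.Basic

set_option autoImplicit false

open Set

namespace Vale.Agent.P032.R2.H417

/-- Compactness for colourings with finitely many colours and allowed colours at each point: if
every finite set of points has a good colouring, the whole set has one. -/
theorem compact_col {X : Type*} {k : ℕ} (E : X → X → Prop) (A : X → Set (Fin k))
    (h : ∀ F : Finset X, ∃ c : X → Fin k, (∀ x ∈ F, ∀ y ∈ F, E x y → c x ≠ c y) ∧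
      ∀ x ∈ F, c x ∈ A x) :
    ∃ c : X → Fin k, (∀ x y, E x y → c x ≠ c y) ∧ ∀ x, c x ∈ A x := by
  classical
  let K : Finset X → Set (X → Fin k) := fun F =>
    {c | (∀ x ∈ F, ∀ y ∈ F, E x y → c x ≠ c y) ∧ ∀ x ∈ F, c x ∈ A x}
  have hcl : ∀ F, IsClosed (K F) := by
    intro F
    have h1 : K F = (⋂ x ∈ F, ⋂ y ∈ F, {c | E x y → c x ≠ c y}) ∩ ⋂ x ∈ F, {c | c x ∈ A x} := by
      ext c
      simp [K]
    rw [h1]
    refine IsClosed.inter ?_ ?_
    · refine isClosed_biInter fun x _ => isClosed_biInter fun y _ => ?_
      have : {c : X → Fin k | E x y → c x ≠ c y} =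
          (fun c : X → Fin k => (c x, c y)) ⁻¹' {p | E x y → p.1 ≠ p.2} := rfl
      rw [this]
      exact (isClosed_discrete _).preimage ((continuous_apply x).prodMk (continuous_apply y))
    · refine isClosed_biInter fun x _ => ?_
      exact (isClosed_discrete (A x)).preimage (continuous_apply x)
  have hne : (⋂ F, K F).Nonempty := by
    refine IsCompact.nonempty_iInter_of_directed_nonempty_isCompact_isClosed K ?_ ?_ ?_ hcl
    · intro F G
      refine ⟨F ∪ G, ?_, ?_⟩
      · intro c hc
        exact ⟨fun x hx y hy => hc.1 x (Finset.mem_union_left _ hx) y (Finset.mem_union_left _ hy),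
          fun x hx => hc.2 x (Finset.mem_union_left _ hx)⟩
      · intro c hc
        exact ⟨fun x hx y hy => hc.1 x (Finset.mem_union_right _ hx) y
          (Finset.mem_union_right _ hy), fun x hx => hc.2 x (Finset.mem_union_right _ hx)⟩
    · intro F
      obtain ⟨c, hc⟩ := h F
      exact ⟨c, hc⟩
    · intro F
      exact (hcl F).isCompact
  obtain ⟨c, hc⟩ := hne
  rw [mem_iInter] at hc
  refine ⟨c, fun x y hxy => ?_, fun x => ?_⟩
  · exact (hc {x, y}).1 x (by simp) y (by simp) hxy
  · exact (hc {x}).2 x (by simp)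

end Vale.Agent.P032.R2.H417
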