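import Vale.Agent.P032.S5.H450.Node
import Vale.Agent.P032.S5.H496.Start

/-!
# P032: RULE 2 and the visibility of its ends, corners of any order

`z = {ab|cd}` a two-pair point, `q` a point of its circle with the palette `{c, d, f}`.

* `Irr.rule2G`: at most two points of the circle have the palette `{a, b, e}`;
* `Cfg.cendG`: every such point is a clean end of an exact `ab`-arc, with `e` on the other side;
* `Cfg.endsG`: both points are ends in the sense of `EE`.

There is no hypothesis on the order of the corners `x + q - z`.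
-/

set_option autoImplicit false

open Set Filter Topology Metric

noncomputable section

namespace Vale.Agent.P032.Six

open Vale.Agent.P032.S5.H450
open Vale.Agent.P032.S5.H349 (nd_ne)

variable {U : Fin 6 → Set ℂ} {T : ℂ → Set (Fin 6)} {z q x₁ x₂ x₃ V Q : ℂ} {X : Set (Fin 6)}
  {a b c d e f r : Fin 6}

/-- **three complementary neighbours of one node**: impossible if the centre is light -/
theorem nd_three (h : Irr U T) (N₁ : Nd T X z q x₁) (N₂ : Nd T X z q x₂) (N₃ : Nd T X z q x₃)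
    (hr : r ∈ X) (hrz : r ∉ T z) (n12 : x₁ ≠ x₂) (n13 : x₁ ≠ x₃) (n23 : x₂ ≠ x₃) : False := by
  have rr : ∀ {x : ℂ}, Nd T X z q x → r ∈ T (q + x - z) := by
    intro x N
    by_contra h1
    exact N.ne_other (N.other.unique h N hr h1 hrz)
  have heavy : ∀ {x y y' : ℂ}, Nd T X z q x → Nd T X z q y → Nd T X z q y' → x ≠ y → x ≠ y' →
      y ≠ y' → ¬ X ⊆ T (q + x - z) := by
    intro x y y' Nx Ny Ny' n1 n2 n3 hX
    have key : ∀ {s : ℂ}, Nd T X z q s → x ≠ s → (q + s - z) + (q + x - z) = 2 * q := by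
      intro s Ns hs
      rcases Nx.heavy_line h hr hrz Nx.other.dv Nx.ne_other hX (p' := q + s - z) Ns.other.dv
        (rr Ns) with h1 | h1
      · exact absurd (by linear_combination -h1) hs
      · exact h1
    exact n3 (by linear_combination key Ny n1 - key Ny' n2)
  have light : ∀ {x : ℂ}, Nd T X z q x → ¬ X ⊆ T (q + x - z) →
      ∃ s ∈ X, s ∉ T (q + x - z) ∧ s ≠ r := by
    intro x N h1
    obtain ⟨s, hs, hs'⟩ := Set.not_subset.1 h1
    exact ⟨s, hs, hs', fun h3 => hs' (h3 ▸ rr N)⟩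
  obtain ⟨s1, a1, b1, c1⟩ := light N₁ (heavy N₁ N₂ N₃ n12 n13 n23)
  obtain ⟨s2, a2, b2, c2⟩ := light N₂ (heavy N₂ N₁ N₃ n12.symm n23 n13)
  obtain ⟨s3, a3, b3, c3⟩ := light N₃ (heavy N₃ N₁ N₂ n13.symm n23.symm n12)
  have d12 : s1 ≠ s2 := fun h1 =>
    n12 (by linear_combination N₁.other.unique h N₂.other a1 b1 (h1 ▸ b2))
  have d13 : s1 ≠ s3 := fun h1 =>
    n13 (by linear_combination N₁.other.unique h N₃.other a1 b1 (h1 ▸ b3))
  have d23 : s2 ≠ s3 := fun h1 =>
    n23 (by linear_combination N₂.other.unique h N₃.other a2 b2 (h1 ▸ b3))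
  have hsub : ({r, s1, s2, s3} : Set (Fin 6)) ⊆ X := by
    rintro m (rfl | rfl | rfl | rfl) <;> assumption
  have h5 := Set.ncard_le_ncard hsub (Set.toFinite _)
  rw [N₁.hX, Set.ncard_insert_of_notMem (by simp [c1.symm, c2.symm, c3.symm]) (Set.toFinite _),
    Set.ncard_insert_of_notMem (by simp [d12, d13]) (Set.toFinite _), Set.ncard_pair d23] at h5
  omega

/-- the palette of `V` is complementary to the palette of `Q` -/
theorem Cfg.compl417 (C : Cfg T z V Q a b c d e f) : T V = ({c, d, f} : Set (Fin 6))ᶜ := by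
  have hz := C.dp
  rw [C.TV]
  ext i
  have h1 := C.cover i
  constructor
  · rintro (rfl | rfl | hi) h2
    · rcases h2 with h2 | h2 | h2
      exacts [hz.ac h2, hz.ad h2, C.fa h2.symm]
    · rcases h2 with h2 | h2 | h2
      exacts [hz.bc h2, hz.bd h2, C.fb h2.symm]
    · rw [mem_singleton_iff] at hi
      subst hi
      rcases h2 with h2 | h2 | h2
      exacts [C.ec h2, C.ed h2, C.ef h2]
  · intro h2
    simp only [mem_compl_iff, mem_insert_iff, mem_singleton_iff, not_or] at h2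
    rcases h1 with h1 | h1 | h1 | h1 | h1 | h1
    exacts [Or.inl h1, Or.inr (Or.inl h1), absurd h1 h2.1, absurd h1 h2.2.1, Or.inr (Or.inr h1),
      absurd h1 h2.2.2]

/-- the node -/
theorem Cfg.node417 (h : Irr U T) (C : Cfg T z V Q a b c d e f) : Nd T {c, d, f} z Q V where
  hX := Set.ncard_eq_three.2 ⟨c, d, f, C.dp.cd, C.fc.symm, C.fd.symm, rfl⟩
  dv := by rw [dist_comm]; exact C.hQ
  dq := by rw [dist_comm]; exact C.hV
  Tv := C.TQ
  Tq := C.compl417
  op := fun h0 => C.anti h (by linear_combination h0)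

/-- **RULE 2**, no bound on the order of the corners -/
theorem Irr.rule2G (h : Irr U T) (hz : DPt T z a b c d)
    (nd : [a, b, c, d, e, f].Nodup) (hq : dist q z = 1) (hTq : T q = {c, d, f})
    (d1 : dist x₁ z = 1) (c1 : T x₁ = {a, b, e}) (d2 : dist x₂ z = 1) (c2 : T x₂ = {a, b, e})
    (d3 : dist x₃ z = 1) (c3 : T x₃ = {a, b, e}) (n12 : x₁ ≠ x₂) (n13 : x₁ ≠ x₃) (n23 : x₂ ≠ x₃) :
    False := by
  obtain ⟨⟨ab, ac, ad, ae, af⟩, ⟨bc, bd, be, bf⟩, ⟨cd, ce, cf⟩, ⟨de, df⟩, ef⟩ := nd_ne nd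
  have he : e ∉ T z := by rw [hz.pal]; simp [Ne.symm ae, Ne.symm be, Ne.symm ce, Ne.symm de]
  have hf : f ∉ T z := by rw [hz.pal]; simp [Ne.symm af, Ne.symm bf, Ne.symm cf, Ne.symm df]
  have key : ∀ x, dist x z = 1 → T x = {a, b, e} → Nd T {c, d, f} z q x := fun x hx hTx =>
    Cfg.node417 h ⟨hz, hx, hq, hTx, hTq, he, hf, ef⟩
  exact nd_three h (key x₁ d1 c1) (key x₂ d2 c2) (key x₃ d3 c3) (r := f) (by simp) hf n12 n13 n23

/-- **RULE 2**, as a bound for the number of points -/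
theorem Irr.rule2_ncardG (h : Irr U T) (hz : DPt T z a b c d)
    (nd : [a, b, c, d, e, f].Nodup) (hq : dist q z = 1) (hTq : T q = {c, d, f}) :
    {x : ℂ | dist x z = 1 ∧ T x = {a, b, e}}.Finite ∧
      {x : ℂ | dist x z = 1 ∧ T x = {a, b, e}}.ncard ≤ 2 := by
  have key : ∀ x₁ x₂ x₃, x₁ ∈ {x : ℂ | dist x z = 1 ∧ T x = {a, b, e}} →
      x₂ ∈ {x : ℂ | dist x z = 1 ∧ T x = {a, b, e}} →
      x₃ ∈ {x : ℂ | dist x z = 1 ∧ T x = {a, b, e}} → x₁ = x₂ ∨ x₁ = x₃ ∨ x₂ = x₃ := by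
    intro x₁ x₂ x₃ h1 h2 h3
    by_contra hcon
    push Not at hcon
    exact h.rule2G hz nd hq hTq h1.1 h1.2 h2.1 h2.2 h3.1 h3.2 hcon.1 hcon.2.1 hcon.2.2
  obtain ⟨S, hS⟩ : ∃ S, S = {x : ℂ | dist x z = 1 ∧ T x = {a, b, e}} := ⟨_, rfl⟩
  rw [← hS] at key ⊢
  have hsub : ∃ x y, S ⊆ {x, y} := by
    rcases S.eq_empty_or_nonempty with h1 | ⟨x, hx⟩
    · exact ⟨0, 0, by rw [h1]; exact Set.empty_subset _⟩
    by_cases h2 : ∃ y ∈ S, y ≠ x
    · obtain ⟨y, hy, hyx⟩ := h2
      refine ⟨x, y, fun w hw => ?_⟩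
      rcases key x y w hx hy hw with h3 | h3 | h3
      · exact absurd h3.symm hyx
      · exact Or.inl h3.symm
      · exact Or.inr h3.symm
    · push Not at h2
      exact ⟨x, x, fun w hw => Or.inl (h2 w hw)⟩
  obtain ⟨x, y, hxy⟩ := hsub
  have hfin : ({x, y} : Set ℂ).Finite := Set.toFinite _
  refine ⟨hfin.subset hxy, (Set.ncard_le_ncard hxy hfin).trans ?_⟩
  have h5 := Set.ncard_insert_le x ({y} : Set ℂ)
  rwa [Set.ncard_singleton] at h5

/-- one side of a point of a circle -/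
theorem pure417 (h : Irr U T) (hab : a ≠ b) (haz : a ∈ T z) (hbz : b ∈ T z) {σ : ℝ}
    (hV : dist V z = 1) (hn : ∀ᶠ t : ℝ in 𝓝[>] 0, T (z + (V - z) * cis (σ * t)) ⊆ {a, b, e} ∧
      T (z + (V - z) * cis (σ * t)) ≠ {a, b, e}) :
    (∀ᶠ t : ℝ in 𝓝[>] 0, T (z + (V - z) * cis (σ * t)) = {a, b}) ∨
      ∀ᶠ t : ℝ in 𝓝[>] 0, e ∈ T (z + (V - z) * cis (σ * t)) ∧
        ¬ ({a, b} : Set (Fin 6)) ⊆ T (z + (V - z) * cis (σ * t)) := by
  obtain ⟨y, hy⟩ : ∃ y : ℝ → ℂ, y = fun t => z + (V - z) * cis (σ * t) := ⟨_, rfl⟩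
  have hyt : ∀ t, z + (V - z) * cis (σ * t) = y t := fun t => by rw [hy]
  simp only [hyt] at hn ⊢
  have hcont : Continuous y := by
    rw [hy]
    exact continuous_const.add (continuous_const.mul (continuous_cis.comp (by fun_prop)))
  have hdist : ∀ t, dist (y t) z = 1 := by
    intro t
    rw [hy]
    show dist (z + (V - z) * cis (σ * t)) z = 1
    rw [dist_eq_norm, add_sub_cancel_left, norm_mul, norm_cis, mul_one, ← dist_eq_norm]
    exact hV
  obtain ⟨ε, hε, hs⟩ := mem_nhdsGT_iff_exists_Ioo_subset.1 hn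
  have hε0 : (0 : ℝ) < ε := hε
  have hs' : ∀ t ∈ Ioo 0 ε, T (y t) ⊆ {a, b, e} ∧ T (y t) ≠ {a, b, e} := fun t ht => hs ht
  have hop : ∀ i : Fin 6, IsOpen {t : ℝ | i ∉ T (y t)} := by
    intro i
    have h1 : IsClosed {t : ℝ | i ∈ T (y t)} := (h.closed i).preimage hcont
    have h2 : {t : ℝ | i ∉ T (y t)} = {t : ℝ | i ∈ T (y t)}ᶜ := rfl
    rw [h2]
    exact h1.isOpen_compl
  have hpair : ∀ t ∈ Ioo 0 ε, e ∉ T (y t) → T (y t) = {a, b} := by
    intro t ht he
    have h1 : T (y t) ⊆ {a, b} := by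
      intro i hi
      rcases (hs' t ht).1 hi with h2 | h2 | h2
      · exact Or.inl h2
      · exact Or.inr h2
      · rw [mem_singleton_iff] at h2
        exact absurd (h2 ▸ hi) he
    have hsub : ({a, b} : Set (Fin 6)) ⊆ T z := by
      rintro i (rfl | hi)
      · exact haz
      · rw [mem_singleton_iff] at hi; rw [hi]; exact hbz
    exact (h.pair_open (z := z) (Set.ncard_pair hab) hsub h1).self_of_nhdsWithin
      (mem_sphere.2 (hdist t))
  have hpre : IsPreconnected (Ioo (0 : ℝ) ε) := isPreconnected_Ioo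
  obtain ⟨A, hA⟩ : ∃ A : Set ℝ, A = Ioo 0 ε ∩ {t : ℝ | e ∉ T (y t)} := ⟨_, rfl⟩
  obtain ⟨B, hB⟩ : ∃ B : Set ℝ, B = Ioo 0 ε ∩ ({t : ℝ | a ∉ T (y t)} ∪ {t : ℝ | b ∉ T (y t)}) :=
    ⟨_, rfl⟩
  have hAo : IsOpen A := by rw [hA]; exact isOpen_Ioo.inter (hop e)
  have hBo : IsOpen B := by rw [hB]; exact isOpen_Ioo.inter ((hop a).union (hop b))
  have hAB : Disjoint A B := by
    rw [Set.disjoint_left]
    intro t h1 h2
    rw [hA] at h1
    rw [hB] at h2
    have h3 := hpair t h1.1 h1.2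
    rcases h2.2 with h4 | h4
    · exact h4 (by rw [h3]; simp)
    · exact h4 (by rw [h3]; simp)
  have hcov : Ioo 0 ε ⊆ A ∪ B := by
    intro t ht
    by_cases he : e ∈ T (y t)
    · right
      rw [hB]
      refine ⟨ht, ?_⟩
      by_contra hcon
      have h1 : a ∈ T (y t) := by
        by_contra h1; exact hcon (Or.inl h1)
      have h2 : b ∈ T (y t) := by
        by_contra h2; exact hcon (Or.inr h2)
      refine (hs' t ht).2 (Subset.antisymm (hs' t ht).1 ?_)
      rintro i (rfl | rfl | hi)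
      · exact h1
      · exact h2
      · rw [mem_singleton_iff] at hi; rw [hi]; exact he
    · left
      rw [hA]
      exact ⟨ht, he⟩
  rcases hpre.subset_or_subset hAo hBo hAB hcov with h1 | h1
  · left
    refine mem_nhdsGT_iff_exists_Ioo_subset.2 ⟨ε, hε, fun t ht => ?_⟩
    have h2 := h1 ht
    rw [hA] at h2
    exact hpair t h2.1 h2.2
  · right
    refine mem_nhdsGT_iff_exists_Ioo_subset.2 ⟨ε, hε, fun t ht => ?_⟩
    have h2 := h1 ht
    rw [hB] at h2
    have h3 : ¬ ({a, b} : Set (Fin 6)) ⊆ T (y t) := by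
      intro h3
      rcases h2.2 with h4 | h4
      · exact h4 (h3 (by simp))
      · exact h4 (h3 (by simp))
    refine ⟨?_, h3⟩
    by_contra he
    exact h3 (by rw [hpair t h2.1 he])

/-- both sides together -/
theorem sides417 {P : ℂ → Prop} (hV : dist V z = 1) (h0 : P V)
    (h1 : ∀ᶠ t : ℝ in 𝓝[>] 0, P (z + (V - z) * cis (1 * t)))
    (h2 : ∀ᶠ t : ℝ in 𝓝[>] 0, P (z + (V - z) * cis (-1 * t))) :
    ∀ᶠ y in 𝓝[sphere z 1] V, P y := by
  rw [eventually_circle hV]
  obtain ⟨ε, hε, hs⟩ := mem_nhdsGT_iff_exists_Ioo_subset.1 h1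
  obtain ⟨η, hη, hs'⟩ := mem_nhdsGT_iff_exists_Ioo_subset.1 h2
  have hε0 : (0 : ℝ) < ε := hε
  have hη0 : (0 : ℝ) < η := hη
  refine Metric.eventually_nhds_iff.2 ⟨min ε η, lt_min hε0 hη0, fun t ht => ?_⟩
  rw [Real.dist_eq, sub_zero] at ht
  have hb := abs_lt.1 ht
  rcases lt_trichotomy t 0 with h3 | h3 | h3
  · have h4 : -t ∈ Ioo 0 η := ⟨by linarith, by have := min_le_right ε η; linarith [hb.1]⟩
    have h5 := hs' h4
    have e1 : -1 * -t = t := by ring
    simp only [Set.mem_ofPred_eq, e1] at h5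
    exact h5
  · rw [h3, cis_zero394, mul_one, add_sub_cancel]
    exact h0
  · have h4 : t ∈ Ioo 0 ε := ⟨h3, by have := min_le_left ε η; linarith [hb.2]⟩
    have h5 := hs h4
    simp only [Set.mem_ofPred_eq, one_mul] at h5
    exact h5

/-- **A point `{a, b, e}` of the circle is a clean end of an exact `ab`-arc** if the circle has a point
`{c, d, f}`; no bound on the order of the corner. -/
theorem Cfg.cendG (h : Irr U T) (C : Cfg T z V Q a b c d e f) : ∃ o, CEnd T z V {a, b} e o := by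
  have hz := C.dp
  obtain ⟨w, hw⟩ : ∃ w, w = V + Q - z := ⟨_, rfl⟩
  have dw : dist w V = 1 := by rw [hw]; exact C.wV
  have dz : dist z V = 1 := by rw [dist_comm]; exact C.hV
  have hne : ∀ t, Stay T z V t → t ∉ T w := by
    intro t hs ht
    rcases hs.line h dz dw ht with h1 | h1
    · exact C.zw h (by rw [← hw]; exact h1.symm)
    · exact C.VQ (by rw [hw] at h1; linear_combination -h1)
  have hE : ¬ Stay T z V e := fun hs => hne e hs (by rw [hw]; exact C.e_mem h)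
  obtain ⟨t, ht, htV, hte⟩ := C.two_V h e
  rw [← hw] at ht
  have hT : ¬ Stay T z V t := fun hs => hne t hs ht
  have htab : t ∈ ({a, b} : Set (Fin 6)) := by
    rw [C.TV] at htV
    rcases htV with h1 | h1 | h1
    · exact Or.inl h1
    · exact Or.inr h1
    · exact absurd h1 hte
  have haz : a ∈ T z := by rw [hz.pal]; simp
  have hbz : b ∈ T z := by rw [hz.pal]; simp
  -- the points `{a, b, e}` are isolated
  have nd : [a, b, c, d, e, f].Nodup := by
    simp [hz.ab, hz.ac, hz.ad, hz.bc, hz.bd, hz.cd, C.ea.symm, C.fa.symm, C.eb.symm, C.fb.symm,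
      C.ec.symm, C.fc.symm, C.ed.symm, C.fd.symm, C.ef]
  have hfin := (h.rule2_ncardG hz nd C.hQ C.TQ).1
  have hiso : ∀ᶠ y in 𝓝 V, dist y z = 1 → T y = {a, b, e} → y = V := by
    have h1 : ({x : ℂ | dist x z = 1 ∧ T x = {a, b, e}} \ {V}).Finite :=
      hfin.subset Set.sdiff_subset
    have h2 : V ∈ ({x : ℂ | dist x z = 1 ∧ T x = {a, b, e}} \ {V})ᶜ := fun h3 => h3.2 rfl
    filter_upwards [h1.isClosed.isOpen_compl.mem_nhds h2] with y hy hd hTy
    by_contra hyV
    exact hy ⟨⟨hd, hTy⟩, hyV⟩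
  have hside : ∀ σ : ℝ, (σ = 1 ∨ σ = -1) →
      ∀ᶠ t : ℝ in 𝓝[>] 0, T (z + (V - z) * cis (σ * t)) ⊆ {a, b, e} ∧
        T (z + (V - z) * cis (σ * t)) ≠ {a, b, e} := by
    intro σ hσ
    have hcont : Continuous fun t : ℝ => z + (V - z) * cis (σ * t) :=
      continuous_const.add (continuous_const.mul (continuous_cis.comp (by fun_prop)))
    have h0 := hcont.tendsto 0
    simp only [mul_zero, cis_zero394, mul_one, add_sub_cancel] at h0
    have h1 := h0.eventually ((h.nhd V).and hiso)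
    have h2 : ∀ᶠ t : ℝ in 𝓝[>] 0, t ∈ Ioo (0 : ℝ) 1 := Ioo_mem_nhdsGT one_pos
    filter_upwards [h1.filter_mono nhdsWithin_le_nhds, h2] with t h3 h4
    refine ⟨by rw [← C.TV]; exact h3.1, fun h5 => ?_⟩
    have hd : dist (z + (V - z) * cis (σ * t)) z = 1 := by
      rw [dist_eq_norm, add_sub_cancel_left, norm_mul, norm_cis, mul_one, ← dist_eq_norm]
      exact C.hV
    have h6 := h3.2 hd h5
    have hVz : V - z ≠ 0 := by
      intro h7
      have := C.hV
      rw [dist_eq_norm, h7, norm_zero] at this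
      exact zero_ne_one this
    have h8 : cis (σ * t) = 1 := by
      have h9 : (V - z) * cis (σ * t) = (V - z) * 1 := by linear_combination h6
      exact mul_left_cancel₀ hVz h9
    have h10 := (cis_ne (o := -σ) (t := t) (by rcases hσ with rfl | rfl <;> norm_num) h4.1 h4.2).1
    rw [neg_mul, neg_neg] at h10
    exact h10 h8
  have hab3 : e ∈ T V := by rw [C.TV]; simp
  rcases pure417 h hz.ab haz hbz C.hV (hside 1 (Or.inl rfl)) with p1 | p1 <;>
    rcases pure417 h hz.ab haz hbz C.hV (hside (-1) (Or.inr rfl)) with p2 | p2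
  · exfalso
    refine hT (sides417 C.hV htV (p1.mono fun s hs => ?_) (p2.mono fun s hs => ?_))
    · rw [hs]; exact htab
    · rw [hs]; exact htab
  · refine ⟨-1, Or.inr rfl, ?_, p2⟩
    rw [neg_neg]
    exact p1
  · exact ⟨1, Or.inl rfl, p2, p1⟩
  · exfalso
    exact hE (sides417 C.hV hab3 (p1.mono fun s hs => hs.1) (p2.mono fun s hs => hs.1))

/-- the intersection of the palettes -/
theorem Cfg.inter417 (C : Cfg T z V Q a b c d e f) : T z ∩ T V = {a, b} := by
  rw [C.dp.pal, C.TV]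
  ext i
  simp only [mem_inter_iff, mem_insert_iff, mem_singleton_iff]
  constructor
  · rintro ⟨h1, h2⟩
    rcases h2 with rfl | rfl | rfl
    · exact Or.inl rfl
    · exact Or.inr rfl
    · rcases h1 with h1 | h1 | h1 | h1
      exacts [Or.inl h1, Or.inr h1, absurd h1 C.ec, absurd h1 C.ed]
  · rintro (rfl | rfl)
    · exact ⟨Or.inl rfl, Or.inl rfl⟩
    · exact ⟨Or.inr (Or.inl rfl), Or.inr (Or.inl rfl)⟩

/-- the other pair -/
theorem Cfg.diff417 (C : Cfg T z V Q a b c d e f) : T z \ T V = {c, d} := by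
  rw [C.dp.pal, C.TV]
  ext i
  simp only [Set.mem_sdiff, mem_insert_iff, mem_singleton_iff, not_or]
  constructor
  · rintro ⟨h1, h2, h3, -⟩
    rcases h1 with h1 | h1 | h1 | h1
    exacts [absurd h1 h2, absurd h1 h3, Or.inl h1, Or.inr h1]
  · rintro (rfl | rfl)
    · exact ⟨Or.inr (Or.inr (Or.inl rfl)), C.dp.ac.symm, C.dp.bc.symm, C.ec.symm⟩
    · exact ⟨Or.inr (Or.inr (Or.inr rfl)), C.dp.ad.symm, C.dp.bd.symm, C.ed.symm⟩

/-- an end with its arc -/
theorem Cfg.oendG (h : Irr U T) (C : Cfg T z V Q a b c d e f) : ∃ o, OEnd T z V o := by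
  have hz := C.dp
  obtain ⟨o, hE⟩ := C.cendG h
  obtain ⟨ε, hε, hs⟩ := mem_nhdsGT_iff_exists_Ioo_subset.1 hE.arc
  refine ⟨o, hE.o1, C.hV, ?_, ?_, ?_, ε, hε, fun t ht => ?_⟩
  · rw [hz.pal, Set.ncard_insert_of_notMem (by simp [hz.ab, hz.ac, hz.ad]) (Set.toFinite _),
      Set.ncard_insert_of_notMem (by simp [hz.bc, hz.bd]) (Set.toFinite _), Set.ncard_pair hz.cd]
  · rw [C.TV]
    exact Set.ncard_eq_three.2 ⟨a, b, e, C.dp.ab, C.ea.symm, C.eb.symm, rfl⟩
  · rw [C.inter417]; exact Set.ncard_pair hz.ab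
  · have h5 := hs ht
    simp only [Set.mem_ofPred_eq] at h5
    rw [neg_mul] at h5
    rw [C.inter417]; exact h5

/-- **two points with complementary palettes are ends**, no bound on the order of the corner -/
theorem Cfg.endsG (h : Irr U T) (C : Cfg T z V Q a b c d e f) :
    EE T z V ∧ EE T z Q ∧ T Q = (T V)ᶜ := by
  refine ⟨⟨C.oendG h, ?_⟩, ⟨C.swap.oendG h, ?_⟩, ?_⟩
  · rw [C.diff417]; exact C.dp.arc2
  · rw [C.swap.diff417]; exact C.dp.arc1
  · rw [C.compl417, compl_compl, C.TQ]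

end Vale.Agent.P032.Six
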